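import Mathlib

/-!
# P171 moonshot, LP layer: exponentiation of the pointwise energy inequality

Abstract step `LP1-E ==> LP1-X` (no project definitions).  `e i j`, `e2 i j` are pair energies
of `N` particles, `same a i j` says that particles `i`, `j` share a cell of the grid `a`
(`same a i i` holds), `g` is a real number and `M > 0`.  If

  `M⁻¹ * ∑ a, (∑_{i ≠ j, same a i j} e2 i j - 2 g #{(i,j) | same a i j}) ≤ ∑_{i ≠ j} e i j`

then the Boltzmann factors satisfy

  `∏_{i ≠ j} exp(-e i j / 2) ≤ ∏ a, (exp(g)^N * ∏_{i ≠ j, same a i j} exp(g) exp(-e2 i j / 2)) ^ M⁻¹`.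
-/

open Finset
open scoped ENNReal

namespace Vale.Agent.H60.P171

/-- A product of exponentials is the exponential of the sum (in `ℝ≥0∞`). -/
theorem expasm_prod_exp {ι : Type*} (s : Finset ι) (f : ι → ℝ) :
    ∏ i ∈ s, ENNReal.ofReal (Real.exp (f i)) = ENNReal.ofReal (Real.exp (∑ i ∈ s, f i)) := by
  rw [Real.exp_sum, ENNReal.ofReal_prod_of_nonneg]
  intro i _
  exact (Real.exp_pos _).le

/-- The off-diagonal double product of exponentials. -/
theorem expasm_offdiag {N : ℕ} (f : Fin N → Fin N → ℝ) :
    ∏ i, ∏ j, (if i = j then (1 : ℝ≥0∞) else ENNReal.ofReal (Real.exp (f i j)))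
      = ENNReal.ofReal (Real.exp (∑ i, ∑ j, if i = j then 0 else f i j)) := by
  rw [← expasm_prod_exp]
  refine Finset.prod_congr rfl fun i _ => ?_
  rw [← expasm_prod_exp]
  refine Finset.prod_congr rfl fun j _ => ?_
  split_ifs
  · simp
  · rfl

/-- The number of ordered pairs in a common cell, diagonal included. -/
theorem expasm_count {N : ℕ} (same : Fin N → Fin N → Prop) [∀ i j, Decidable (same i j)]
    (hdiag : ∀ i, same i i) :
    ((univ.filter (fun p : Fin N × Fin N => same p.1 p.2)).card : ℝ)
      = N + ∑ i, ∑ j, if i = j then (0 : ℝ) else if same i j then 1 else 0 := by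
  have h1 : ((univ.filter (fun p : Fin N × Fin N => same p.1 p.2)).card : ℝ)
      = ∑ i, ∑ j, if same i j then (1 : ℝ) else 0 := by
    rw [Finset.card_filter, Nat.cast_sum, Fintype.sum_prod_type]
    refine Finset.sum_congr rfl fun i _ => Finset.sum_congr rfl fun j _ => ?_
    split_ifs <;> simp
  have h2 : ∀ i, (∑ j, if same i j then (1 : ℝ) else 0)
      = 1 + ∑ j, if i = j then (0 : ℝ) else if same i j then 1 else 0 := by
    intro i
    have h3 : ∀ j, (if same i j then (1 : ℝ) else 0)
        = (if i = j then (1 : ℝ) else 0) + (if i = j then (0 : ℝ) else if same i j then 1 else 0) := by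
      intro j
      by_cases hij : i = j
      · subst hij
        simp [hdiag i]
      · simp [hij]
    rw [Finset.sum_congr rfl (fun j _ => h3 j), Finset.sum_add_distrib, Finset.sum_ite_eq]
    simp
  rw [h1]
  simp_rw [h2]
  rw [Finset.sum_add_distrib]
  simp

/-- **Exponentiation of the pointwise energy inequality.** -/
theorem exp_assembly {N : ℕ} {A : Type*} [Fintype A] (M : ℝ) (hM : 0 < M)
    (e e2 : Fin N → Fin N → ℝ) (same : A → Fin N → Fin N → Prop)
    [∀ a i j, Decidable (same a i j)] (hdiag : ∀ a i, same a i i) (g : ℝ)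
    (hE : M⁻¹ * ∑ a, ((∑ i, ∑ j, if i = j then 0 else if same a i j then e2 i j else 0)
        - 2 * g * ((univ.filter (fun p : Fin N × Fin N => same a p.1 p.2)).card : ℝ))
      ≤ ∑ i, ∑ j, if i = j then 0 else e i j) :
    ∏ i, ∏ j, (if i = j then (1 : ℝ≥0∞) else ENNReal.ofReal (Real.exp (-(e i j) / 2)))
      ≤ ∏ a, (ENNReal.ofReal (Real.exp g) ^ N * ∏ i, ∏ j,
          (if i = j then (1 : ℝ≥0∞) else if same a i j then
            ENNReal.ofReal (Real.exp g) * ENNReal.ofReal (Real.exp (-(e2 i j) / 2)) else 1))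
        ^ M⁻¹ := by
  have _hM := hM
  rw [expasm_offdiag]
  have hfac : ∀ a, (ENNReal.ofReal (Real.exp g) ^ N * ∏ i, ∏ j,
          (if i = j then (1 : ℝ≥0∞) else if same a i j then
            ENNReal.ofReal (Real.exp g) * ENNReal.ofReal (Real.exp (-(e2 i j) / 2)) else 1))
        ^ M⁻¹
      = ENNReal.ofReal (Real.exp (M⁻¹ *
          (g * ((univ.filter (fun p : Fin N × Fin N => same a p.1 p.2)).card : ℝ)
            - (∑ i, ∑ j, if i = j then 0 else if same a i j then e2 i j else 0) / 2))) := by
    intro a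
    have h1 : ∀ i j, (if i = j then (1 : ℝ≥0∞) else if same a i j then
            ENNReal.ofReal (Real.exp g) * ENNReal.ofReal (Real.exp (-(e2 i j) / 2)) else 1)
        = if i = j then (1 : ℝ≥0∞) else
            ENNReal.ofReal (Real.exp (if same a i j then g + -(e2 i j) / 2 else 0)) := by
      intro i j
      split_ifs
      · rfl
      · rw [Real.exp_add, ENNReal.ofReal_mul (Real.exp_pos _).le]
      · simp
    simp_rw [h1]
    rw [expasm_offdiag]
    have h2 : ENNReal.ofReal (Real.exp g) ^ N = ENNReal.ofReal (Real.exp (g * N)) := by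
      rw [← ENNReal.ofReal_pow (Real.exp_pos _).le, ← Real.exp_nat_mul, mul_comm]
    rw [h2, ← ENNReal.ofReal_mul (Real.exp_pos _).le, ← Real.exp_add,
      ENNReal.ofReal_rpow_of_pos (Real.exp_pos _), ← Real.exp_mul]
    congr 2
    have hpt : ∀ i j, (if i = j then (0 : ℝ) else if same a i j then g + -(e2 i j) / 2 else 0)
        = g * (if i = j then (0 : ℝ) else if same a i j then 1 else 0)
          - (if i = j then (0 : ℝ) else if same a i j then e2 i j else 0) / 2 := by
      intro i j
      split_ifs <;> ring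
    have hsum : (∑ i, ∑ j, if i = j then (0 : ℝ) else if same a i j then g + -(e2 i j) / 2 else 0)
        = g * (∑ i, ∑ j, if i = j then (0 : ℝ) else if same a i j then 1 else 0)
          - (∑ i, ∑ j, if i = j then (0 : ℝ) else if same a i j then e2 i j else 0) / 2 := by
      simp_rw [hpt, Finset.sum_sub_distrib, ← Finset.mul_sum, ← Finset.sum_div]
    rw [hsum, expasm_count (same a) (hdiag a)]
    ring
  simp_rw [hfac]
  rw [expasm_prod_exp]
  apply ENNReal.ofReal_le_ofReal
  apply Real.exp_le_exp.mpr
  have hL : (∑ i, ∑ j, if i = j then (0 : ℝ) else -(e i j) / 2)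
      = (-1 / 2) * ∑ i, ∑ j, if i = j then (0 : ℝ) else e i j := by
    have h3 : ∀ i j, (if i = j then (0 : ℝ) else -(e i j) / 2)
        = (-1 / 2) * (if i = j then (0 : ℝ) else e i j) := by
      intro i j
      split_ifs <;> ring
    simp_rw [h3, ← Finset.mul_sum]
  have hR : (∑ a, M⁻¹ *
        (g * ((univ.filter (fun p : Fin N × Fin N => same a p.1 p.2)).card : ℝ)
          - (∑ i, ∑ j, if i = j then 0 else if same a i j then e2 i j else 0) / 2))
      = (-1 / 2) * (M⁻¹ * ∑ a, ((∑ i, ∑ j, if i = j then 0 else if same a i j then e2 i j else 0)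
        - 2 * g * ((univ.filter (fun p : Fin N × Fin N => same a p.1 p.2)).card : ℝ))) := by
    rw [Finset.mul_sum, Finset.mul_sum]
    refine Finset.sum_congr rfl fun a _ => ?_
    ring
  rw [hL, hR]
  linarith

end Vale.Agent.H60.P171
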